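import Vale.Agent.P195.Final

open CategoryTheory

/-- The Auslander-Reiten conjecture fails: there are a finite-dimensional algebra `A` over a
field and a finitely generated non-projective left `A`-module `M` with
`Ext^i(M, M) = Ext^i(M, A) = Ext^i(M, M ⊕ A) = 0` for all `i ≥ 1`. -/
theorem Vale.Agent.Results.P195.Counterexample.result :
    ∃ (k : Type) (_ : Field k) (A : Type) (_ : Ring A) (_ : Algebra k A) (M : ModuleCat.{0} A),
      FiniteDimensional k A ∧ Module.Finite A M ∧
      (∀ i : ℕ, 1 ≤ i → Subsingleton (Abelian.Ext M M i) ∧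
        Subsingleton (Abelian.Ext M (ModuleCat.of A A) i) ∧
        Subsingleton (Abelian.Ext M (ModuleCat.of A (M × A)) i)) ∧
      ¬ Module.Projective A M :=
  ⟨Vale.Agent.P195.KK, inferInstance, Vale.Agent.P195.theSetup.ar⟩
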